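import Crest.Agent.R35.Game

set_option autoImplicit false

namespace Crest.Agent.R35

open Crest.CombinatoricsR.PolyominoGame

/-- The cell coded by a bit position. -/
def cell (n : ℕ) : Cell := (((n % 32 : ℕ) : ℤ), ((n / 32 : ℕ) : ℤ))

theorem cell_inj {a b : ℕ} (h : cell a = cell b) : a = b := by
  unfold cell at h
  have h1 := congrArg Prod.fst h
  have h2 := congrArg Prod.snd h
  simp only [Nat.cast_inj] at h1 h2
  omega

/-- Bit `n` of `s` is set and significant (the lowest 64 bits carry no meaning). -/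
def tb (s n : ℕ) : Prop := 64 ≤ n ∧ s.testBit n = true

theorem tb_lor (a b n : ℕ) : tb (Nat.lor a b) n ↔ tb a n ∨ tb b n := by
  have : (Nat.lor a b).testBit n = (a.testBit n || b.testBit n) := Nat.testBit_or _ _ _
  unfold tb
  rw [this, Bool.or_eq_true, and_or_left]

theorem tb_land (a b n : ℕ) : tb (Nat.land a b) n ↔ tb a n ∧ tb b n := by
  have : (Nat.land a b).testBit n = (a.testBit n && b.testBit n) := Nat.testBit_and _ _ _
  unfold tb
  rw [this, Bool.and_eq_true, and_and_left]

theorem testBit_bit (m n : ℕ) : (Nat.shiftLeft 1 m).testBit n = decide (m = n) := by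
  have : Nat.shiftLeft 1 m = 2 ^ m := by
    show 1 <<< m = 2 ^ m
    rw [Nat.one_shiftLeft]
  rw [this, Nat.testBit_two_pow]

theorem tb_bit (m n : ℕ) : tb (Nat.shiftLeft 1 m) n ↔ 64 ≤ n ∧ m = n := by
  unfold tb
  rw [testBit_bit, decide_eq_true_iff]

theorem tb_del (a m n : ℕ) (h : tb a n) (hm : m ≠ n) :
    tb (Nat.xor (Nat.lor a (Nat.shiftLeft 1 m)) (Nat.shiftLeft 1 m)) n := by
  have e : (Nat.xor (Nat.lor a (Nat.shiftLeft 1 m)) (Nat.shiftLeft 1 m)).testBit n =
      ((a.testBit n || (Nat.shiftLeft 1 m).testBit n) ^^ (Nat.shiftLeft 1 m).testBit n) := by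
    rw [← Nat.testBit_or, ← Nat.testBit_xor]; rfl
  refine ⟨h.1, ?_⟩
  rw [e, testBit_bit, h.2]
  simp [hm]

theorem tb_salt (a w n : ℕ) : tb (Nat.xor a (Nat.land w 0xffffffffffffffff)) n ↔ tb a n := by
  have e : (Nat.xor a (Nat.land w 0xffffffffffffffff)).testBit n =
      (a.testBit n ^^ (w.testBit n && Nat.testBit (2 ^ 64 - 1) n)) := by
    rw [← Nat.testBit_and, ← Nat.testBit_xor]; rfl
  unfold tb
  rw [e, Nat.testBit_two_pow_sub_one]
  constructor
  · rintro ⟨h1, h2⟩
    have : ¬ n < 64 := by omega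
    exact ⟨h1, by simpa [this] using h2⟩
  · rintro ⟨h1, h2⟩
    have : ¬ n < 64 := by omega
    exact ⟨h1, by simpa [this] using h2⟩

/-- Pattern semantics: if Maker owns the cells of `C`, Breaker owns no cell of `S` except possibly
`b`, and `b` is not a cell of `I`, then Maker to move wins within `d` claims. -/
def V (C S I d : ℕ) : Prop := ∀ (M B : Finset Cell) (b : Cell),
  (∀ n, tb C n → cell n ∈ M) →
  (∀ n, tb S n → cell n ∈ B → cell n = b) →
  (∀ n, tb I n → cell n ≠ b) → G d M B

theorem V_congr {C S I C' S' I' d : ℕ} (hC : ∀ n, tb C n → tb C' n) (hS : ∀ n, tb S n → tb S' n)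
    (hI : ∀ n, tb I n → tb I' n) (h : V C S I d) : V C' S' I' d :=
  fun M B b h1 h2 h3 =>
    h M B b (fun n hn => h1 n (hC n hn)) (fun n hn => h2 n (hS n hn)) (fun n hn => h3 n (hI n hn))

theorem V_merge {C1 S1 I1 d1 C2 S2 I2 d2 : ℕ} (h1 : V C1 S1 I1 d1) (h2 : V C2 S2 I2 d2) :
    V (Nat.lor C1 C2) (Nat.lor S1 S2) (Nat.land I1 I2) (cond (Nat.ble d1 d2) d2 d1) := by
  intro M B b hC' hS' hI'
  simp only [tb_lor, tb_land] at hC' hS' hI'
  have hd1 : d1 ≤ cond (Nat.ble d1 d2) d2 d1 := by
    cases h : Nat.ble d1 d2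
    · simp
    · simpa using Nat.le_of_ble_eq_true h
  have hd2 : d2 ≤ cond (Nat.ble d1 d2) d2 d1 := by
    cases h : Nat.ble d1 d2
    · have : ¬ d1 ≤ d2 := fun h' => by rw [Nat.ble_eq_true_of_le h'] at h; cases h
      simp only [cond_false]; omega
    · simp
  by_cases h : ∀ n, tb I1 n → cell n ≠ b
  · exact G_mono hd1 (h1 M B b (fun n hn => hC' n (Or.inl hn)) (fun n hn => hS' n (Or.inl hn)) h)
  · push Not at h
    obtain ⟨n1, hn1, hb⟩ := h
    refine G_mono hd2 (h2 M B b (fun n hn => hC' n (Or.inr hn)) (fun n hn => hS' n (Or.inr hn)) ?_)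
    intro n hn hnb
    have : n = n1 := cell_inj (hnb.trans hb.symm)
    subst this
    exact hI' n ⟨hn1, hn⟩ hnb

theorem V_close {C S I d : ℕ} (m : ℕ) (h : V C S I d) :
    V (Nat.xor (Nat.lor (Nat.lor C I) (Nat.shiftLeft 1 m)) (Nat.shiftLeft 1 m))
      (Nat.lor S (Nat.shiftLeft 1 m)) (Nat.lor S (Nat.shiftLeft 1 m)) (Nat.succ d) := by
  intro M B b0 hC hS hI
  have hB : ∀ n, (tb S n ∨ (64 ≤ n ∧ m = n)) → cell n ∉ B := by
    intro n hn hnB
    have : tb (Nat.lor S (Nat.shiftLeft 1 m)) n := by rw [tb_lor, tb_bit]; exact hn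
    exact hI n this (hS n this hnB)
  have key : ∀ m', (64 ≤ m → cell m ∈ insert m' M) → ∀ b, b ∉ insert m' M →
      G d (insert m' M) (insert b B) := by
    intro m' hm b hb
    have hCI : ∀ n, (tb C n ∨ tb I n) → cell n ∈ insert m' M := by
      intro n hn
      by_cases hmn : m = n
      · subst hmn
        exact hm (hn.elim (fun h => h.1) (fun h => h.1))
      · exact Finset.mem_insert_of_mem (hC n (tb_del _ _ _ ((tb_lor _ _ _).2 hn) hmn))
    refine h _ _ b (fun n hn => hCI n (Or.inl hn)) ?_ ?_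
    · intro n hn hnB
      rcases Finset.mem_insert.1 hnB with h' | h'
      · exact h'
      · exact absurd h' (hB n (Or.inl hn))
    · intro n hn hnb
      exact hb (hnb ▸ hCI n (Or.inr hn))
  by_cases hm : cell m ∈ M ∨ m < 64
  · obtain ⟨m', h1, h2⟩ := exists_free M B
    refine ⟨m', h1, h2, fun b hb _ => key m' (fun h64 => ?_) b hb⟩
    rcases hm with hm | hm
    · exact Finset.mem_insert_of_mem hm
    · omega
  · push Not at hm
    exact ⟨cell m, hm.1, hB m (Or.inr ⟨hm.2, rfl⟩), fun b hb _ =>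
      key (cell m) (fun _ => Finset.mem_insert_self _ _) b hb⟩

/-- Bit masks of the eight orientations of Snaky. -/
def shape (o : ℕ) : ℕ :=
  match o with
  | 0 => 0x180000000f
  | 1 => 0x30000001e
  | 2 => 0xf00000018
  | 3 => 0x1e00000003
  | 4 => 0x200000003000000010000000100000001
  | 5 => 0x100000003000000020000000200000002
  | 6 => 0x100000001000000010000000300000002
  | _ => 0x200000002000000020000000300000001

theorem copy_aux {K p : ℕ} {M : Finset Cell} (hp : p % 32 ≤ 27) (hp2 : 64 ≤ p)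
    (hC : ∀ n, tb (Nat.shiftLeft K p) n → cell n ∈ M) (dx dy : ℕ) (hx : dx ≤ 4)
    (hb : K.testBit (32 * dy + dx) = true) (c : Cell)
    (h1 : c.1 = ((p % 32 : ℕ) : ℤ) + dx) (h2 : c.2 = ((p / 32 : ℕ) : ℤ) + dy) :
    c ∈ (M : Set Cell) := by
  have h := hC (p + (32 * dy + dx)) ⟨by omega, by
    show (K <<< p).testBit _ = true
    rw [Nat.testBit_shiftLeft]
    simp [hb]⟩
  have e : cell (p + (32 * dy + dx)) = c := by
    unfold cell
    ext
    · rw [h1]; simp only; omega
    · rw [h2]; simp only; omega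
  rw [e] at h
  exact h

/-- Admissible anchor of a copy. -/
noncomputable def okp (p : ℕ) : Bool :=
  @Bool.rec (fun _ => Bool) false (Nat.ble (Nat.mod p 32) 27) (Nat.ble 64 p)

theorem V_copy (o p : ℕ) (hp : okp p = true) :
    V (Nat.shiftLeft (shape o) p) 0 0 0 := by
  intro M B b hC _ _
  unfold okp at hp
  have hp2 : Nat.ble 64 p = true := by
    cases h : Nat.ble 64 p
    · rw [h] at hp; cases hp
    · rfl
  rw [hp2] at hp
  have hp' : p % 32 ≤ 27 := Nat.le_of_ble_eq_true hp
  have A := fun dx dy hx hb c h1 h2 =>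
    copy_aux (M := M) hp' (Nat.le_of_ble_eq_true hp2) hC dx dy hx hb c h1 h2
  show ContainsCopy (M : Set Cell)
  set x : ℤ := ((p % 32 : ℕ) : ℤ)
  set y : ℤ := ((p / 32 : ℕ) : ℤ)
  unfold ContainsCopy snaky
  match o, A with
  | 0, A =>
    refine ⟨(x, y), 1, 1, by simp, by simp, Or.inl ?_⟩
    simp only [Finset.mem_insert, Finset.mem_singleton, forall_eq_or_imp, forall_eq]
    exact ⟨A 0 0 (by decide) (by decide) _ (by simp) (by simp),
      A 1 0 (by decide) (by decide) _ (by simp) (by simp),
      A 2 0 (by decide) (by decide) _ (by simp) (by simp),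
      A 3 0 (by decide) (by decide) _ (by simp) (by simp),
      A 3 1 (by decide) (by decide) _ (by simp) (by simp),
      A 4 1 (by decide) (by decide) _ (by simp) (by simp)⟩
  | 1, A =>
    refine ⟨(x + 4, y), -1, 1, by simp, by simp, Or.inl ?_⟩
    simp only [Finset.mem_insert, Finset.mem_singleton, forall_eq_or_imp, forall_eq]
    exact ⟨A 4 0 (by decide) (by decide) _ (by simp) (by simp),
      A 3 0 (by decide) (by decide) _ (by simp; ring) (by simp),
      A 2 0 (by decide) (by decide) _ (by simp; ring) (by simp),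
      A 1 0 (by decide) (by decide) _ (by simp; ring) (by simp),
      A 1 1 (by decide) (by decide) _ (by simp; ring) (by simp),
      A 0 1 (by decide) (by decide) _ (by simp) (by simp)⟩
  | 2, A =>
    refine ⟨(x, y + 1), 1, -1, by simp, by simp, Or.inl ?_⟩
    simp only [Finset.mem_insert, Finset.mem_singleton, forall_eq_or_imp, forall_eq]
    exact ⟨A 0 1 (by decide) (by decide) _ (by simp) (by simp),
      A 1 1 (by decide) (by decide) _ (by simp) (by simp),
      A 2 1 (by decide) (by decide) _ (by simp) (by simp),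
      A 3 1 (by decide) (by decide) _ (by simp) (by simp),
      A 3 0 (by decide) (by decide) _ (by simp) (by simp),
      A 4 0 (by decide) (by decide) _ (by simp) (by simp)⟩
  | 3, A =>
    refine ⟨(x + 4, y + 1), -1, -1, by simp, by simp, Or.inl ?_⟩
    simp only [Finset.mem_insert, Finset.mem_singleton, forall_eq_or_imp, forall_eq]
    exact ⟨A 4 1 (by decide) (by decide) _ (by simp) (by simp),
      A 3 1 (by decide) (by decide) _ (by simp; ring) (by simp),
      A 2 1 (by decide) (by decide) _ (by simp; ring) (by simp),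
      A 1 1 (by decide) (by decide) _ (by simp; ring) (by simp),
      A 1 0 (by decide) (by decide) _ (by simp; ring) (by simp),
      A 0 0 (by decide) (by decide) _ (by simp) (by simp)⟩
  | 4, A =>
    refine ⟨(x, y), 1, 1, by simp, by simp, Or.inr ?_⟩
    simp only [Finset.mem_insert, Finset.mem_singleton, forall_eq_or_imp, forall_eq]
    exact ⟨A 0 0 (by decide) (by decide) _ (by simp) (by simp),
      A 0 1 (by decide) (by decide) _ (by simp) (by simp),
      A 0 2 (by decide) (by decide) _ (by simp) (by simp),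
      A 0 3 (by decide) (by decide) _ (by simp) (by simp),
      A 1 3 (by decide) (by decide) _ (by simp) (by simp),
      A 1 4 (by decide) (by decide) _ (by simp) (by simp)⟩
  | 5, A =>
    refine ⟨(x + 1, y), -1, 1, by simp, by simp, Or.inr ?_⟩
    simp only [Finset.mem_insert, Finset.mem_singleton, forall_eq_or_imp, forall_eq]
    exact ⟨A 1 0 (by decide) (by decide) _ (by simp) (by simp),
      A 1 1 (by decide) (by decide) _ (by simp) (by simp),
      A 1 2 (by decide) (by decide) _ (by simp) (by simp),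
      A 1 3 (by decide) (by decide) _ (by simp) (by simp),
      A 0 3 (by decide) (by decide) _ (by simp) (by simp),
      A 0 4 (by decide) (by decide) _ (by simp) (by simp)⟩
  | 6, A =>
    refine ⟨(x, y + 4), 1, -1, by simp, by simp, Or.inr ?_⟩
    simp only [Finset.mem_insert, Finset.mem_singleton, forall_eq_or_imp, forall_eq]
    exact ⟨A 0 4 (by decide) (by decide) _ (by simp) (by simp),
      A 0 3 (by decide) (by decide) _ (by simp) (by simp; ring),
      A 0 2 (by decide) (by decide) _ (by simp) (by simp; ring),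
      A 0 1 (by decide) (by decide) _ (by simp) (by simp; ring),
      A 1 1 (by decide) (by decide) _ (by simp) (by simp; ring),
      A 1 0 (by decide) (by decide) _ (by simp) (by simp)⟩
  | o + 7, A =>
    have hs : shape (o + 7) = 0x200000002000000020000000300000001 := rfl
    rw [hs] at A
    refine ⟨(x + 1, y + 4), -1, -1, by simp, by simp, Or.inr ?_⟩
    simp only [Finset.mem_insert, Finset.mem_singleton, forall_eq_or_imp, forall_eq]
    exact ⟨A 1 4 (by decide) (by decide) _ (by simp) (by simp),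
      A 1 3 (by decide) (by decide) _ (by simp) (by simp; ring),
      A 1 2 (by decide) (by decide) _ (by simp) (by simp; ring),
      A 1 1 (by decide) (by decide) _ (by simp) (by simp; ring),
      A 0 1 (by decide) (by decide) _ (by simp) (by simp; ring),
      A 0 0 (by decide) (by decide) _ (by simp) (by simp)⟩

theorem G_image (φ : Cell → Cell) (hφ : Function.Involutive φ)
    (hc : ∀ X : Set Cell, ContainsCopy X → ContainsCopy (φ '' X)) :
    ∀ (d : ℕ) (M B : Finset Cell), G d M B → G d (M.image φ) (B.image φ)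
  | 0, M, B, h => by
    show ContainsCopy _
    rw [Finset.coe_image]
    exact hc _ h
  | d + 1, M, B, ⟨m, h1, h2, h3⟩ => by
    have mem : ∀ (X : Finset Cell) (c : Cell), c ∈ X.image φ ↔ φ c ∈ X := by
      intro X c
      rw [Finset.mem_image]
      constructor
      · rintro ⟨a, ha, rfl⟩; rwa [hφ a]
      · intro h; exact ⟨φ c, h, hφ c⟩
    refine ⟨φ m, by rw [mem, hφ m]; exact h1, by rw [mem, hφ m]; exact h2, fun b hb hb' => ?_⟩
    rw [← Finset.image_insert, mem] at hb
    rw [mem] at hb'
    have := G_image φ hφ hc d _ _ (h3 (φ b) hb hb')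
    rw [Finset.image_insert, Finset.image_insert, hφ b] at this
    exact this

theorem V_trans (φ : Cell → Cell) (hφ : Function.Involutive φ)
    (hc : ∀ X : Set Cell, ContainsCopy X → ContainsCopy (φ '' X)) {C S I C' S' I' d : ℕ}
    (hC : ∀ n, tb C n → ∃ n', tb C' n' ∧ cell n' = φ (cell n))
    (hS : ∀ n, tb S n → ∃ n', tb S' n' ∧ cell n' = φ (cell n))
    (hI : ∀ n, tb I n → ∃ n', tb I' n' ∧ cell n' = φ (cell n))
    (h : V C S I d) : V C' S' I' d := by
  intro M B b h1 h2 h3
  have := G_image φ hφ hc d _ _ (h (M.image φ) (B.image φ) (φ b) ?_ ?_ ?_)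
  · rw [Finset.image_image, Finset.image_image, hφ.comp_self, Finset.image_id,
      Finset.image_id] at this
    exact this
  · intro n hn
    obtain ⟨n', hn', e⟩ := hC n hn
    exact Finset.mem_image.2 ⟨cell n', h1 n' hn', by rw [e, hφ]⟩
  · intro n hn hB
    obtain ⟨n', hn', e⟩ := hS n hn
    obtain ⟨z, hz, hz'⟩ := Finset.mem_image.1 hB
    have : cell n' = z := by rw [e, ← hz', hφ]
    rw [← hz', ← this, h2 n' hn' (this ▸ hz)]
  · intro n hn hb
    obtain ⟨n', hn', e⟩ := hI n hn
    exact h3 n' hn' (by rw [e, hb, hφ])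

def rx (c : Cell) : Cell := (30 - c.1, c.2)
def sw (c : Cell) : Cell := (c.2, c.1)

theorem rx_inv : Function.Involutive rx := fun c => by simp [rx]
theorem sw_inv : Function.Involutive sw := fun c => by simp [sw]

theorem rx_copy (X : Set Cell) (h : ContainsCopy X) : ContainsCopy (rx '' X) := by
  obtain ⟨t, e1, e2, h1, h2, h3⟩ := h
  refine ⟨(30 - t.1, t.2), -e1, e2, by omega, h2, ?_⟩
  rcases h3 with h3 | h3
  · exact Or.inl fun p hp => ⟨_, h3 p hp, by simp only [rx]; ext <;> simp; ring⟩
  · exact Or.inr fun p hp => ⟨_, h3 p hp, by simp only [rx]; ext <;> simp; ring⟩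

theorem sw_copy (X : Set Cell) (h : ContainsCopy X) : ContainsCopy (sw '' X) := by
  obtain ⟨t, e1, e2, h1, h2, h3⟩ := h
  refine ⟨(t.2, t.1), e2, e1, h2, h1, ?_⟩
  rcases h3 with h3 | h3
  · exact Or.inr fun p hp => ⟨_, h3 p hp, rfl⟩
  · exact Or.inl fun p hp => ⟨_, h3 p hp, rfl⟩

end Crest.Agent.R35
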