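import Mathlib
import Crest.Prelude.Def_PolyominoGame

set_option autoImplicit false

namespace Crest.Agent.R35

open Crest.CombinatoricsR.PolyominoGame

abbrev Cell := ℤ × ℤ

/-- `G d M B`: Maker (to move, owning `M`, Breaker owning `B`) can make `d` legal claims after
which he owns a copy of Snaky. -/
def G : ℕ → Finset Cell → Finset Cell → Prop
  | 0, M, _ => ContainsCopy (M : Set Cell)
  | d + 1, M, B => ∃ m, m ∉ M ∧ m ∉ B ∧
      ∀ b, b ∉ insert m M → b ∉ B → G d (insert m M) (insert b B)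

theorem containsCopy_mono {X Y : Set Cell} (h : X ⊆ Y) (hX : ContainsCopy X) : ContainsCopy Y := by
  obtain ⟨t, e1, e2, h1, h2, h3⟩ := hX
  refine ⟨t, e1, e2, h1, h2, ?_⟩
  rcases h3 with h3 | h3
  · exact Or.inl fun p hp => h (h3 p hp)
  · exact Or.inr fun p hp => h (h3 p hp)

theorem exists_free (M B : Finset Cell) : ∃ m, m ∉ M ∧ m ∉ B := by
  obtain ⟨m, hm⟩ := Infinite.exists_notMem_finset (M ∪ B)
  exact ⟨m, fun h => hm (Finset.mem_union_left _ h), fun h => hm (Finset.mem_union_right _ h)⟩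

theorem G_succ : ∀ (d : ℕ) (M B : Finset Cell), G d M B → G (d + 1) M B
  | 0, M, B, h => by
    obtain ⟨m, h1, h2⟩ := exists_free M B
    exact ⟨m, h1, h2, fun b _ _ => containsCopy_mono (by simp) h⟩
  | d + 1, M, B, ⟨m, h1, h2, h3⟩ => ⟨m, h1, h2, fun b hb hb' => G_succ d _ _ (h3 b hb hb')⟩

theorem G_mono {d e : ℕ} (hde : d ≤ e) {M B : Finset Cell} (h : G d M B) : G e M B := by
  induction hde with
  | refl => exact h
  | step _ ih => exact G_succ _ _ _ ih

open Classical in
noncomputable def next (d : ℕ) (M B : Finset Cell) : Cell :=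
  if h : G (d + 1) M B then Classical.choose h else 0

theorem next_spec {d : ℕ} {M B : Finset Cell} (h : G (d + 1) M B) :
    next d M B ∉ M ∧ next d M B ∉ B ∧
      ∀ b, b ∉ insert (next d M B) M → b ∉ B → G d (insert (next d M B) M) (insert b B) := by
  unfold next
  rw [dif_pos h]
  exact Classical.choose_spec h

/-- Maker's cells after the (reversed) history `r`. -/
noncomputable def mst : List Cell → Finset Cell
  | [] => ∅
  | _ :: r => insert (next (20 - r.length) (mst r) r.toFinset) (mst r)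

noncomputable def pol (l : List Cell) : Cell :=
  next (20 - l.reverse.length) (mst l.reverse) l.reverse.toFinset

def hist (b : ℕ → Cell) (k : ℕ) : List Cell := ((List.range k).map b).reverse

theorem hist_succ (b : ℕ → Cell) (k : ℕ) : hist b (k + 1) = b k :: hist b k := by
  simp [hist, List.range_succ]

theorem hist_length (b : ℕ → Cell) (k : ℕ) : (hist b k).length = k := by simp [hist]

theorem claim_eq (b : ℕ → Cell) (k : ℕ) :
    makerClaim pol b k = next (20 - k) (mst (hist b k)) (hist b k).toFinset := by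
  have := hist_length b k
  unfold makerClaim pol
  unfold hist at this ⊢
  rw [this]

theorem mem_hist (b : ℕ → Cell) (k : ℕ) (c : Cell) :
    c ∈ (hist b k).toFinset ↔ ∃ j, j < k ∧ c = b j := by
  simp [hist, eq_comm]

theorem mem_mst (b : ℕ → Cell) (k : ℕ) (c : Cell) :
    c ∈ mst (hist b k) ↔ ∃ j, j < k ∧ c = makerClaim pol b j := by
  induction k with
  | zero => simp [hist, mst]
  | succ k ih =>
    rw [hist_succ, mst, hist_length, ← claim_eq, Finset.mem_insert, ih]
    constructor
    · rintro (h | ⟨j, hj, h⟩)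
      · exact ⟨k, Nat.lt_succ_self k, h⟩
      · exact ⟨j, Nat.lt_succ_of_lt hj, h⟩
    · rintro ⟨j, hj, h⟩
      rcases Nat.lt_succ_iff_lt_or_eq.1 hj with hj | rfl
      · exact Or.inr ⟨j, hj, h⟩
      · exact Or.inl h

theorem main_of_G (h0 : G 21 ∅ ∅) :
    ∃ σ : List (ℤ × ℤ) → ℤ × ℤ, ∀ b : ℕ → ℤ × ℤ,
      (∀ k : ℕ, k < 20 →
        (∀ j : ℕ, j ≤ k → b k ≠ makerClaim σ b j) ∧
        (∀ j : ℕ, j < k → b k ≠ b j)) →
      (∀ k : ℕ, k ≤ 20 →
        (∀ j : ℕ, j < k → makerClaim σ b k ≠ makerClaim σ b j) ∧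
        (∀ j : ℕ, j < k → makerClaim σ b k ≠ b j)) ∧
      ContainsCopy {c | ∃ j : ℕ, j ≤ 20 ∧ c = makerClaim σ b j} := by
  refine ⟨pol, fun b hb => ?_⟩
  have inv : ∀ k, k ≤ 20 → G (20 - k + 1) (mst (hist b k)) (hist b k).toFinset := by
    intro k
    induction k with
    | zero => intro _; simpa [hist, mst] using h0
    | succ k ih =>
      intro hk
      have hk' : k < 20 := hk
      obtain ⟨_, _, h3⟩ := next_spec (ih hk'.le)
      have e : 20 - k = 20 - (k + 1) + 1 := by omega
      rw [hist_succ, mst, hist_length, List.toFinset_cons, ← e]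
      apply h3
      · rw [← claim_eq, Finset.mem_insert, mem_mst]
        rintro (h | ⟨j, hj, h⟩)
        · exact (hb k hk').1 k le_rfl h
        · exact (hb k hk').1 j hj.le h
      · rw [mem_hist]
        rintro ⟨j, hj, h⟩
        exact (hb k hk').2 j hj h
  refine ⟨fun k hk => ?_, ?_⟩
  · obtain ⟨h1, h2, _⟩ := next_spec (inv k hk)
    rw [← claim_eq] at h1 h2
    rw [mem_mst] at h1
    rw [mem_hist] at h2
    exact ⟨fun j hj h => h1 ⟨j, hj, h⟩, fun j hj h => h2 ⟨j, hj, h⟩⟩
  · obtain ⟨_, _, h3⟩ := next_spec (inv 20 le_rfl)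
    obtain ⟨b', hb1, hb2⟩ := exists_free
      (insert (next (20 - 20) (mst (hist b 20)) (hist b 20).toFinset) (mst (hist b 20)))
      (hist b 20).toFinset
    have h4 : ContainsCopy _ := h3 b' hb1 hb2
    refine containsCopy_mono ?_ h4
    intro c hc
    rw [← claim_eq, Finset.coe_insert, Set.mem_insert_iff, Finset.mem_coe, mem_mst] at hc
    rcases hc with h | ⟨j, hj, h⟩
    · exact ⟨20, le_rfl, h⟩
    · exact ⟨j, hj.le, h⟩

end Crest.Agent.R35
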