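import Crest.Agent.R35.Cert

set_option autoImplicit false

namespace Crest.Agent.R35

/-- A stack of patterns. -/
inductive Stk : Type
  | nil : Stk
  | cons (C S I d : ℕ) (r : Stk) : Stk

/-- A store of patterns (Braun-style tree). -/
inductive Tr : Type
  | leaf : Tr
  | node (l : Tr) (C S I d : ℕ) (r : Tr) : Tr

def AllS : Stk → Prop
  | .nil => True
  | .cons C S I d r => V C S I d ∧ AllS r

def AllT : Tr → Prop
  | .leaf => True
  | .node l C S I d r => AllT l ∧ V C S I d ∧ AllT r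

/-- Strict evaluation of a natural number before continuing. -/
noncomputable def force {α : Type} (n : ℕ) (k : ℕ → α) : α :=
  @Nat.rec (fun _ => α) (k 0) (fun m _ => k (Nat.succ m)) n

theorem force_eq {α : Type} (n : ℕ) (k : ℕ → α) : force n k = k n := by
  cases n <;> rfl

noncomputable def ite' {α : Type} (c : Bool) (a b : α) : α := @Bool.rec (fun _ => α) b a c

noncomputable def tget (t : Tr) : ℕ → (ℕ → ℕ → ℕ → ℕ → Bool) → Bool :=
  @Tr.rec (fun _ => ℕ → (ℕ → ℕ → ℕ → ℕ → Bool) → Bool) (fun _ _ => false)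
    (fun _ C S I d _ ihl ihr i k =>
      @Nat.rec (fun _ => Bool) (k C S I d)
        (fun j _ => @Bool.rec (fun _ => Bool) (ihr (Nat.shiftRight j 1) k)
          (ihl (Nat.shiftRight j 1) k) (Nat.beq (Nat.land j 1) 0)) i) t

theorem tget_sound : ∀ (t : Tr) (i : ℕ) (k : ℕ → ℕ → ℕ → ℕ → Bool), AllT t → tget t i k = true →
    ∃ C S I d, V C S I d ∧ k C S I d = true
  | .leaf, _, _, _, h => by cases h
  | .node l C S I d r, 0, k, ht, h => ⟨C, S, I, d, ht.2.1, h⟩
  | .node l C S I d r, j + 1, k, ht, h => by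
    have h' : @Bool.rec (fun _ => Bool) (tget r (Nat.shiftRight j 1) k)
      (tget l (Nat.shiftRight j 1) k) (Nat.beq (Nat.land j 1) 0) = true := h
    cases hb : Nat.beq (Nat.land j 1) 0 <;> rw [hb] at h'
    · exact tget_sound r _ k ht.2.2 h'
    · exact tget_sound l _ k ht.1 h'

noncomputable def tset (C S I d : ℕ) (t : Tr) : ℕ → (Tr → Bool) → Bool :=
  @Tr.rec (fun _ => ℕ → (Tr → Bool) → Bool) (fun _ k => k (Tr.node .leaf C S I d .leaf))
    (fun l C' S' I' d' r ihl ihr i k =>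
      @Nat.rec (fun _ => Bool) (k (Tr.node l C S I d r))
        (fun j _ => @Bool.rec (fun _ => Bool)
          (ihr (Nat.shiftRight j 1) (fun r' => k (Tr.node l C' S' I' d' r')))
          (ihl (Nat.shiftRight j 1) (fun l' => k (Tr.node l' C' S' I' d' r)))
          (Nat.beq (Nat.land j 1) 0)) i) t

theorem tset_sound {C S I d : ℕ} (hv : V C S I d) : ∀ (t : Tr) (i : ℕ) (k : Tr → Bool), AllT t →
    tset C S I d t i k = true → ∃ t', AllT t' ∧ k t' = true
  | .leaf, _, _, _, h => ⟨Tr.node .leaf C S I d .leaf, ⟨trivial, hv, trivial⟩, h⟩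
  | .node l C' S' I' d' r, 0, k, ht, h => ⟨Tr.node l C S I d r, ⟨ht.1, hv, ht.2.2⟩, h⟩
  | .node l C' S' I' d' r, j + 1, k, ht, h => by
    have h' : @Bool.rec (fun _ => Bool)
      (tset C S I d r (Nat.shiftRight j 1) (fun r' => k (Tr.node l C' S' I' d' r')))
      (tset C S I d l (Nat.shiftRight j 1) (fun l' => k (Tr.node l' C' S' I' d' r)))
      (Nat.beq (Nat.land j 1) 0) = true := h
    cases hb : Nat.beq (Nat.land j 1) 0 <;> rw [hb] at h'
    · obtain ⟨t', h1, h2⟩ := tset_sound hv r _ _ ht.2.2 h'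
      exact ⟨Tr.node l C' S' I' d' t', ⟨ht.1, ht.2.1, h1⟩, h2⟩
    · obtain ⟨t', h1, h2⟩ := tset_sound hv l _ _ ht.1 h'
      exact ⟨Tr.node t' C' S' I' d' r, ⟨h1, ht.2.1, ht.2.2⟩, h2⟩

/-- Image of the bits of `s` below `k` under `f`, added to `acc`. -/
noncomputable def trm (f : ℕ → ℕ) (s k : ℕ) : ℕ → ℕ :=
  @Nat.rec (fun _ => ℕ → ℕ) (fun acc => acc)
    (fun j ih acc => ite' (Nat.testBit s j) (force (Nat.lor acc (Nat.shiftLeft 1 (f j))) ih)
      (ih acc)) k

theorem trm_spec (f : ℕ → ℕ) (s : ℕ) : ∀ (k acc : ℕ),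
    (∀ n, acc.testBit n = true → (trm f s k acc).testBit n = true) ∧
    (∀ n, n < k → s.testBit n = true → (trm f s k acc).testBit (f n) = true)
  | 0, acc => ⟨fun _ h => h, fun _ h => absurd h (Nat.not_lt_zero _)⟩
  | j + 1, acc => by
    have e : trm f s (j + 1) acc = ite' (Nat.testBit s j)
      (force (Nat.lor acc (Nat.shiftLeft 1 (f j))) (trm f s j)) (trm f s j acc) := rfl
    rw [e, force_eq]
    cases hb : Nat.testBit s j
    · refine ⟨(trm_spec f s j acc).1, fun n hn hs => (trm_spec f s j acc).2 n ?_ hs⟩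
      rcases Nat.lt_succ_iff_lt_or_eq.1 hn with h | rfl
      · exact h
      · rw [hb] at hs; cases hs
    · have ih := trm_spec f s j (Nat.lor acc (Nat.shiftLeft 1 (f j)))
      have t : ∀ n, (Nat.lor acc (Nat.shiftLeft 1 (f j))).testBit n =
          (acc.testBit n || decide (f j = n)) := by
        intro n
        rw [← testBit_bit]
        exact Nat.testBit_or _ _ _
      refine ⟨fun n hn => ih.1 n (by rw [t, hn]; rfl), fun n hn hs => ?_⟩
      rcases Nat.lt_succ_iff_lt_or_eq.1 hn with h | rfl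
      · exact ih.2 n h hs
      · exact ih.1 _ (by rw [t]; simp)

/-- Bits of the cells with both coordinates in `[2, 28]`, and the lowest 64 bits. -/
def box : ℕ := (2 ^ 864 - 1) / (2 ^ 32 - 1) * (2 ^ 29 - 4) * 2 ^ 64 + (2 ^ 64 - 1)

set_option exponentiation.threshold 1000 in
theorem box_spec (n : ℕ) (h64 : 64 ≤ n) (h : box.testBit n = true) :
    n < 928 ∧ 2 ≤ n % 32 ∧ n % 32 ≤ 28 := by
  have h1 : n < 928 := by
    by_contra hn
    have : box < 2 ^ n :=
      lt_of_lt_of_le (by decide +kernel : box < 2 ^ 928)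
        (Nat.pow_le_pow_right (by decide) (not_lt.1 hn))
    rw [Nat.testBit_lt_two_pow this] at h
    cases h
  have h2 : ∀ n, n < 928 → 64 ≤ n → box.testBit n = true → 2 ≤ n % 32 ∧ n % 32 ≤ 28 := by
    decide +kernel
  exact ⟨h1, h2 n h1 h64 h⟩

def inBox (s : ℕ) : Bool := Nat.beq (Nat.land s box) s

theorem inBox_spec {s : ℕ} (h : inBox s = true) (n : ℕ) (hn : tb s n) :
    n < 928 ∧ 2 ≤ n % 32 ∧ n % 32 ≤ 28 := by
  have e : s &&& box = s := Nat.eq_of_beq_eq_true h
  have h2 := hn.2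
  rw [← e, Nat.testBit_and, Bool.and_eq_true] at h2
  exact box_spec n hn.1 h2.2

def frx (n : ℕ) : ℕ := cond (Nat.ble 64 n)
  (Nat.add (Nat.mul 32 (Nat.div n 32)) (Nat.sub 30 (Nat.mod n 32))) n
def fsw (n : ℕ) : ℕ := cond (Nat.ble 64 n) (Nat.add (Nat.mul 32 (Nat.mod n 32)) (Nat.div n 32)) n

theorem frx_spec {s : ℕ} (h : inBox s = true) (n : ℕ) (hn : tb s n) :
    ∃ n', tb (trm frx s 928 0) n' ∧ cell n' = rx (cell n) := by
  obtain ⟨h1, h2, h3⟩ := inBox_spec h n hn
  have h64 := hn.1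
  have e : frx n = 32 * (n / 32) + (30 - n % 32) := by
    unfold frx; rw [Nat.ble_eq_true_of_le h64]; rfl
  refine ⟨frx n, ⟨by omega, (trm_spec frx s 928 0).2 n h1 hn.2⟩, ?_⟩
  rw [e]
  unfold cell rx
  ext
  · simp only; omega
  · simp only; omega

theorem fsw_spec {s : ℕ} (h : inBox s = true) (n : ℕ) (hn : tb s n) :
    ∃ n', tb (trm fsw s 928 0) n' ∧ cell n' = sw (cell n) := by
  obtain ⟨h1, h2, h3⟩ := inBox_spec h n hn
  have h64 := hn.1
  have e : fsw n = 32 * (n % 32) + n / 32 := by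
    unfold fsw; rw [Nat.ble_eq_true_of_le h64]; rfl
  refine ⟨fsw n, ⟨by omega, (trm_spec fsw s 928 0).2 n h1 hn.2⟩, ?_⟩
  rw [e]
  unfold cell sw
  ext
  · simp only; omega
  · simp only; omega

/-- The pattern "one cell `y` of the copy `(o, p)` is missing". -/
theorem V_threat (o p y : ℕ) (hp : okp p = true) :
    V (Nat.xor (Nat.lor (Nat.shiftLeft (shape o) p) (Nat.shiftLeft 1 y)) (Nat.shiftLeft 1 y))
      (Nat.shiftLeft 1 y) (Nat.shiftLeft 1 y) 1 := by
  have h := V_close y (V_copy o p hp)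
  have e1 : Nat.lor (Nat.shiftLeft (shape o) p) 0 = Nat.shiftLeft (shape o) p := Nat.or_zero _
  have e2 : Nat.lor 0 (Nat.shiftLeft 1 y) = Nat.shiftLeft 1 y := Nat.zero_or _
  rw [e1, e2] at h
  exact h

theorem V_salt {C S I d : ℕ} (w : ℕ) (h : V C S I d) :
    V (Nat.xor C (Nat.land w 0xffffffffffffffff)) (Nat.xor S (Nat.land w 0xffffffffffffffff))
      (Nat.xor I (Nat.land w 0xffffffffffffffff)) d :=
  V_congr (fun _ => (tb_salt _ _ _).2) (fun _ => (tb_salt _ _ _).2) (fun _ => (tb_salt _ _ _).2) h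

noncomputable def pop (s : Stk) (k : ℕ → ℕ → ℕ → ℕ → Stk → Bool) : Bool :=
  @Stk.rec (fun _ => Bool) false (fun C S I d r _ => k C S I d r) s

theorem pop_sound {s : Stk} {k : ℕ → ℕ → ℕ → ℕ → Stk → Bool} (hs : AllS s) (h : pop s k = true) :
    ∃ C S I d r, V C S I d ∧ AllS r ∧ k C S I d r = true := by
  cases s with
  | nil => cases h
  | cons C S I d r => exact ⟨C, S, I, d, r, hs.1, hs.2, h⟩

abbrev Kont := ℕ → Stk → Tr → Bool

noncomputable def doClose (m C S I d : ℕ) (r : Stk) (w : ℕ) (t : Tr) (k : Kont) : Bool :=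
  force (Nat.shiftLeft 1 m) fun bm =>
  force (Nat.land w 0xffffffffffffffff) fun z =>
  force (Nat.xor (Nat.xor (Nat.lor (Nat.lor C I) bm) bm) z) fun C' =>
  force (Nat.xor (Nat.lor S bm) z) fun S' =>
  force (Nat.succ d) fun d' => k w (Stk.cons C' S' S' d' r) t

noncomputable def opMerge (w : ℕ) (s : Stk) (t : Tr) (k : Kont) : Bool :=
  pop s fun C1 S1 I1 d1 r1 => pop r1 fun C2 S2 I2 d2 r =>
  force (Nat.land w 0xffffffffffffffff) fun z =>
  force (Nat.xor (Nat.lor C1 C2) z) fun C => force (Nat.xor (Nat.lor S1 S2) z) fun S =>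
  force (Nat.xor (Nat.land I1 I2) z) fun I =>
  force (cond (Nat.ble d1 d2) d2 d1) fun d => k w (Stk.cons C S I d r) t

noncomputable def opClose (w : ℕ) (s : Stk) (t : Tr) (k : Kont) : Bool :=
  pop s fun C S I d r => doClose (Nat.land w 1023) C S I d r (Nat.shiftRight w 10) t k

noncomputable def opThreat (w : ℕ) (s : Stk) (t : Tr) (k : Kont) : Bool :=
  force (Nat.land (Nat.shiftRight w 3) 1023) fun p =>
  force (Nat.shiftLeft 1 (Nat.land (Nat.shiftRight w 13) 1023)) fun by' =>
  force (Nat.land w 0xffffffffffffffff) fun z =>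
  ite' (okp p)
    (force (Nat.xor (Nat.xor (Nat.lor (Nat.shiftLeft (shape (Nat.land w 7)) p) by') by') z) fun C =>
      force (Nat.xor by' z) fun S =>
      k (Nat.shiftRight w 23) (Stk.cons C S S 1 s) t) false

noncomputable def opForced (w : ℕ) (s : Stk) (t : Tr) (k : Kont) : Bool :=
  pop s fun C S I d r =>
  force (Nat.land (Nat.shiftRight w 3) 1023) fun p =>
  force (Nat.shiftLeft 1 (Nat.land (Nat.shiftRight w 13) 1023)) fun by' =>
  ite' (okp p)
    (doClose (Nat.land (Nat.shiftRight w 23) 1023)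
      (Nat.lor (Nat.xor (Nat.lor (Nat.shiftLeft (shape (Nat.land w 7)) p) by') by') C)
      (Nat.lor by' S) (Nat.land by' I) (cond (Nat.ble 1 d) d 1) r (Nat.shiftRight w 33) t k) false

noncomputable def opLoad (w : ℕ) (s : Stk) (t : Tr) (k : Kont) : Bool :=
  tget t (Nat.land w 65535) fun C S I d => k (Nat.shiftRight w 16) (Stk.cons C S I d s) t

noncomputable def opStore (w : ℕ) (s : Stk) (t : Tr) (k : Kont) : Bool :=
  pop s fun C S I d r => tset C S I d t (Nat.land (Nat.shiftRight w 1) 65535) fun t' =>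
    ite' (Nat.beq (Nat.land w 1) 0) (k (Nat.shiftRight w 17) (Stk.cons C S I d r) t')
      (k (Nat.shiftRight w 17) r t')

noncomputable def opSym (w : ℕ) (s : Stk) (t : Tr) (k : Kont) : Bool :=
  pop s fun C S I d r =>
  ite' (inBox C && inBox S && inBox I)
    (ite' (Nat.beq (Nat.land w 1) 0)
      (force (trm frx C 928 0) fun C' => force (trm frx S 928 0) fun S' =>
        force (trm frx I 928 0) fun I' => k (Nat.shiftRight w 1) (Stk.cons C' S' I' d r) t)
      (force (trm fsw C 928 0) fun C' => force (trm fsw S 928 0) fun S' =>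
        force (trm fsw I 928 0) fun I' => k (Nat.shiftRight w 1) (Stk.cons C' S' I' d r) t))
    false

/-- Execute the instruction with opcode `c` and remaining word `w`. -/
noncomputable def exec (c w : ℕ) (s : Stk) (t : Tr) (k : Kont) : Bool :=
  ite' (Nat.ble c 3)
    (ite' (Nat.beq c 1) (opForced w s t k)
      (ite' (Nat.beq c 2) (opMerge w s t k) (opThreat w s t k)))
    (ite' (Nat.ble c 5)
      (ite' (Nat.beq c 4) (opLoad w s t k) (opClose w s t k))
      (ite' (Nat.beq c 6) (opStore w s t k) (opSym w s t k)))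

def Good (k : Kont) : Prop := ∃ w s t, AllS s ∧ AllT t ∧ k w s t = true

theorem good_cons {k : Kont} {w C S I d : ℕ} {r : Stk} {t : Tr} (hv : V C S I d) (hr : AllS r)
    (ht : AllT t) (h : k w (Stk.cons C S I d r) t = true) : Good k :=
  ⟨w, Stk.cons C S I d r, t, ⟨hv, hr⟩, ht, h⟩

theorem ite'_cases {c a b : Bool} (h : ite' c a b = true) :
    (c = true ∧ a = true) ∨ (c = false ∧ b = true) := by
  cases c
  · exact Or.inr ⟨rfl, h⟩
  · exact Or.inl ⟨rfl, h⟩

theorem doClose_sound {m C S I d w : ℕ} {r : Stk} {t : Tr} {k : Kont} (hv : V C S I d)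
    (hr : AllS r) (ht : AllT t) (h : doClose m C S I d r w t k = true) : Good k := by
  simp only [doClose, force_eq] at h
  exact good_cons (V_salt w (V_close m hv)) hr ht h

theorem exec_sound {c w : ℕ} {s : Stk} {t : Tr} {k : Kont} (hs : AllS s) (ht : AllT t)
    (h : exec c w s t k = true) : Good k := by
  unfold exec at h
  rcases ite'_cases h with ⟨-, h⟩ | ⟨-, h⟩
  · rcases ite'_cases h with ⟨-, h⟩ | ⟨-, h⟩
    · obtain ⟨C, S, I, d, r, hv, hr, h⟩ := pop_sound hs h
      simp only [force_eq] at h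
      rcases ite'_cases h with ⟨hp, h⟩ | ⟨-, h⟩
      · exact doClose_sound (V_merge (V_threat _ _ _ hp) hv) hr ht h
      · cases h
    · rcases ite'_cases h with ⟨-, h⟩ | ⟨-, h⟩
      · obtain ⟨C1, S1, I1, d1, r1, hv1, hr1, h⟩ := pop_sound hs h
        obtain ⟨C2, S2, I2, d2, r, hv2, hr, h⟩ := pop_sound hr1 h
        simp only [force_eq] at h
        exact good_cons (V_salt w (V_merge hv1 hv2)) hr ht h
      · simp only [opThreat, force_eq] at h
        rcases ite'_cases h with ⟨hp, h⟩ | ⟨-, h⟩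
        · exact good_cons (V_salt w (V_threat _ _ _ hp)) hs ht h
        · cases h
  · rcases ite'_cases h with ⟨-, h⟩ | ⟨-, h⟩
    · rcases ite'_cases h with ⟨-, h⟩ | ⟨-, h⟩
      · obtain ⟨C, S, I, d, hv, h⟩ := tget_sound _ _ _ ht h
        exact good_cons hv hs ht h
      · obtain ⟨C, S, I, d, r, hv, hr, h⟩ := pop_sound hs h
        exact doClose_sound hv hr ht h
    · rcases ite'_cases h with ⟨-, h⟩ | ⟨-, h⟩
      · obtain ⟨C, S, I, d, r, hv, hr, h⟩ := pop_sound hs h
        obtain ⟨t', ht', h⟩ := tset_sound hv _ _ _ ht h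
        rcases ite'_cases h with ⟨-, h⟩ | ⟨-, h⟩
        · exact good_cons hv hr ht' h
        · exact ⟨_, _, _, hr, ht', h⟩
      · obtain ⟨C, S, I, d, r, hv, hr, h⟩ := pop_sound hs h
        rcases ite'_cases h with ⟨hb, h⟩ | ⟨-, h⟩
        · simp only [Bool.and_eq_true] at hb
          obtain ⟨⟨hC, hS⟩, hI⟩ := hb
          rcases ite'_cases h with ⟨-, h⟩ | ⟨-, h⟩
          · simp only [force_eq] at h
            exact good_cons (V_trans rx rx_inv rx_copy (frx_spec hC) (frx_spec hS) (frx_spec hI) hv)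
              hr ht h
          · simp only [force_eq] at h
            exact good_cons (V_trans sw sw_inv sw_copy (fsw_spec hC) (fsw_spec hS) (fsw_spec hI) hv)
              hr ht h
        · cases h

/-- Run the instructions packed in one word (lowest bits first, until the opcode is `0`). -/
noncomputable def runW (K : Stk → Tr → Bool) (fuel : ℕ) : Kont :=
  @Nat.rec (fun _ => Kont) (fun _ s t => K s t)
    (fun _ ih w s t => force (Nat.land w 7) fun c =>
      ite' (Nat.beq c 0) (K s t) (force (Nat.shiftRight w 3) fun w' => exec c w' s t ih)) fuel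

theorem runW_sound (K : Stk → Tr → Bool) : ∀ (fuel : ℕ), Good (runW K fuel) →
    ∃ s t, AllS s ∧ AllT t ∧ K s t = true
  | 0, ⟨_, s, t, hs, ht, h⟩ => ⟨s, t, hs, ht, h⟩
  | n + 1, ⟨w, s, t, hs, ht, h⟩ => by
    have h' : force (Nat.land w 7) (fun c => ite' (Nat.beq c 0) (K s t)
      (force (Nat.shiftRight w 3) fun w' => exec c w' s t (runW K n))) = true := h
    simp only [force_eq] at h'
    rcases ite'_cases h' with ⟨-, h'⟩ | ⟨-, h'⟩
    · exact ⟨s, t, hs, ht, h'⟩
    · exact runW_sound K n (exec_sound hs ht h')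

noncomputable def runL (K : Stk → Tr → Bool) (l : List ℕ) : Stk → Tr → Bool :=
  @List.rec ℕ (fun _ => Stk → Tr → Bool) K (fun w _ ih s t => runW ih 1000 w s t) l

theorem runL_sound (K : Stk → Tr → Bool) : ∀ (l : List ℕ) (s : Stk) (t : Tr), AllS s → AllT t →
    runL K l s t = true → ∃ s t, AllS s ∧ AllT t ∧ K s t = true
  | [], s, t, hs, ht, h => ⟨s, t, hs, ht, h⟩
  | w :: l, s, t, hs, ht, h => by
    obtain ⟨s', t', hs', ht', h'⟩ := runW_sound (runL K l) 1000 ⟨w, s, t, hs, ht, h⟩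
    exact runL_sound K l s' t' hs' ht' h'

noncomputable def eqS (s : Stk) : Stk → Bool :=
  @Stk.rec (fun _ => Stk → Bool) (fun _ => true)
    (fun C S I d _ ih s' => pop s' fun C' S' I' d' r' =>
      ite' (Nat.beq C C' && Nat.beq S S' && Nat.beq I I' && Nat.beq d d') (ih r') false) s

theorem eqS_sound : ∀ (e s : Stk), AllS s → eqS e s = true → AllS e
  | .nil, _, _, _ => trivial
  | .cons C S I d r, s, hs, h => by
    obtain ⟨C', S', I', d', r', hv, hr, h⟩ := pop_sound (k := fun C' S' I' d' r' =>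
      ite' (Nat.beq C C' && Nat.beq S S' && Nat.beq I I' && Nat.beq d d') (eqS r r') false) hs h
    rcases ite'_cases h with ⟨hb, h⟩ | ⟨-, h⟩
    · simp only [Bool.and_eq_true] at hb
      obtain ⟨⟨⟨h1, h2⟩, h3⟩, h4⟩ := hb
      rw [Nat.eq_of_beq_eq_true h1, Nat.eq_of_beq_eq_true h2, Nat.eq_of_beq_eq_true h3,
        Nat.eq_of_beq_eq_true h4]
      exact ⟨hv, eqS_sound r r' hr h⟩
    · cases h

/-- Run the program `l` from the stack `s`; the final stack must begin with `e`. -/
noncomputable def check (l : List ℕ) (s e : Stk) : Bool := runL (fun s' _ => eqS e s') l s Tr.leaf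

theorem check_sound {l : List ℕ} {s e : Stk} (hs : AllS s) (h : check l s e = true) : AllS e := by
  obtain ⟨s', _, hs', _, h'⟩ := runL_sound _ l s Tr.leaf hs trivial h
  exact eqS_sound e s' hs' h'

theorem G_of_V {C S : ℕ} (hC : C < 2 ^ 64) (h : V C S S 21) : G 21 ∅ ∅ := by
  refine h ∅ ∅ (-1, -1) (fun n hn => ?_) (fun n _ hn => by simp at hn) ?_
  · have := Nat.testBit_lt_two_pow
      (lt_of_lt_of_le hC (Nat.pow_le_pow_right (by decide) hn.1))
    rw [hn.2] at this
    cases this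
  · intro n _ hn
    have := congrArg Prod.fst hn
    simp only [cell] at this
    omega

end Crest.Agent.R35
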